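import Vale.Agent.Lib.P154.PChain.Prog

set_option linter.all false

namespace Vale.Agent.Lib.P154.PChain.BY

open Vale.Agent.Lib.P154.Chain

/-- the global parameters -/
noncomputable def g : GP := ⟨2, 2, 5, 38, 30, 64, 78, 76⟩

/-- the weights of the mixture -/
noncomputable def wp : WP := ⟨(nat_lit 2412750), (WL.cons (nat_lit 7077401) (WL.cons (nat_lit 19816724) (WL.cons (nat_lit 52844598) (WL.cons (nat_lit 133872983) (WL.cons (nat_lit 321295159) (WL.cons (nat_lit 728269028) (WL.cons (nat_lit 1553640594) (WL.cons (nat_lit 3107281189) (WL.cons (nat_lit 5800258220) (WL.cons (nat_lit 10053780914) (WL.cons (nat_lit 16086049463) (WL.cons (nat_lit 23592872546) (WL.cons (nat_lit 31457163395) (WL.cons (nat_lit 37748596074) (WL.cons (nat_lit 40265169146) (WL.cons (nat_lit 37580824536) (WL.cons (nat_lit 30064659629) (WL.cons (nat_lit 20043106419) (WL.cons (nat_lit 10689656757) (WL.cons (nat_lit 4275862702) (WL.cons (nat_lit 1140230054) WL.nil))))))))))))))))))))), (nat_lit 152030673), (nat_lit 22)⟩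

/-- a lattice -/
noncomputable def l0 : LP := ⟨1150, 1000, 100, 200, 19, (nat_lit 14870395989013502302793257783969828656778174374378351424275672086094293248991193367095427693665419353895054053086858993490696709969818771451210306900957965819450806554600709859881417981567828172777695145267405238311195377121459788967555238882255759979152518254218578364723266885810913280)⟩

/-- a lattice -/
noncomputable def l1 : LP := ⟨1080, 1000, 120, 240, 44, (nat_lit 307254729414180068480393321808554633448264904239137455735447551181458874693341622101631050734399620963988537175942450677252047402010998821691684170176019471318566429261188493324061242323946135503895336223040354395862206031363065224435973820319160895773701316464422055010815278534261133659402586033525975761807896124499768594391956437470896597215236550253831836798269214883119176292822374586998843850144266690891732102446662025807532853893467867007434241374228233650730546571972419579275671600888581137793709171132038413981960237725912806382739036412046325013536814412022786761037575235776340361063045110090335817818075462553851682874872884373749760)⟩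

/-- a lattice -/
noncomputable def l2 : LP := ⟨1050, 1000, 120, 240, 2, (nat_lit 31987233076587858744583643394502840811520)⟩

/-- a lattice -/
noncomputable def l3 : LP := ⟨1030, 1000, 130, 260, 2, (nat_lit 29605349970990069752878113007237563678720)⟩

/-- the parameters of the class at the hand-off -/
noncomputable def hp : HP := ⟨349432, 1000000, 131, 100, 69, 100, 1, 1, 64⟩

end Vale.Agent.Lib.P154.PChain.BY
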